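import Vale.Agent.P032.H728.GKit

/-!
# The general end, data: trees
-/

set_option maxRecDepth 20000

namespace Vale.Agent.P032.H838.GD

open Vale.Agent.P032.H728.G

/-- a binary tree: indices up to `k` to the left -/
inductive BT (α : Type) where
  | tip : α → BT α
  | bin : Nat → BT α → BT α → BT α

/-- the entry with the index `i` -/
noncomputable def BT.get {α : Type} (t : BT α) (i : Nat) : α :=
  BT.rec (motive := fun _ => α) (fun a => a) (fun k _ _ l r => Bool.rec r l (Nat.ble i k)) t

end Vale.Agent.P032.H838.GD
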